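import Vale.Agent.Lib.P073.FibreTri

namespace Vale.Agent.Results.P073.FibredHomeos

open Vale.Agent.Lib.P073 MeasureTheory Set
open scoped ENNReal

/-- Fibre-preserving Sobolev homeomorphisms of cylinders.  Here `ℝ³` is (ℝ × ℝ) × ℝ.  Let
`1 ≤ p < ∞`, let `D` be a bounded convex nonempty open subset of the plane and `V` a subset of
the plane.  Hypothesis `hPlanar` is the planar approximation theorem for the pair `D`, `V`:
every continuous bijection of `D` onto `V` lying in `W^{1,p}(D)` is diffeomorphically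
approximable in `W^{1,p}` (this is the two-dimensional theorem of Iwaniec, Kovalev and Onninen
for `1 < p < ∞` and of Hencl and Pratelli for `p = 1`; it is not proved here).  Conclusion:
every continuous bijection `f` of the cylinder `D × (0,1)` onto `V × (0,1)` which lies in
`W^{1,p}` and maps vertical segments into vertical segments (the first two components of `f`
depend only on the first two variables) is diffeomorphically approximable in `W^{1,p}`.
Nothing is assumed about the inverse, the Jacobian, or the direction of monotonicity along the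
fibres. -/
theorem result {p : ℝ≥0∞} (hp : 1 ≤ p) (hp' : p ≠ ⊤)
    {D V : Set (ℝ × ℝ)} (hD : IsOpen D) (hDb : Bornology.IsBounded D) (hDc : Convex ℝ D)
    (hDn : D.Nonempty)
    (hPlanar : ∀ (g : ℝ × ℝ → ℝ × ℝ) (Gg : ℝ × ℝ → (ℝ × ℝ) →L[ℝ] (ℝ × ℝ)),
      ContinuousOn g D → BijOn g D V → IsSobolevWith p D g Gg → IsDiffeoApproximable p D V g)
    {f : (ℝ × ℝ) × ℝ → (ℝ × ℝ) × ℝ}
    {G : (ℝ × ℝ) × ℝ → ((ℝ × ℝ) × ℝ) →L[ℝ] ((ℝ × ℝ) × ℝ)}
    (hcont : ContinuousOn f (D ×ˢ Ioo (0 : ℝ) 1))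
    (hbij : BijOn f (D ×ˢ Ioo (0 : ℝ) 1) (V ×ˢ Ioo (0 : ℝ) 1))
    (hS : IsSobolevWith p (D ×ˢ Ioo (0 : ℝ) 1) f G)
    (hfib : ∀ x ∈ D ×ˢ Ioo (0 : ℝ) 1, ∀ x' ∈ D ×ˢ Ioo (0 : ℝ) 1,
      x.1 = x'.1 → (f x).1 = (f x').1) :
    IsDiffeoApproximable p (D ×ˢ Ioo (0 : ℝ) 1) (V ×ˢ Ioo (0 : ℝ) 1) f :=
  isDiffeoApproximable_of_fibre_preserving hp hp' hD hDb hDc hDn hPlanar hcont hbij hS hfib

end Vale.Agent.Results.P073.FibredHomeos
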