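import Vale.Agent.Lib.P073.MonoMain

namespace Vale.Agent.Results.P073.LocallyMonotoneHomeos

open Vale.Agent.Lib.P073 MeasureTheory Set Metric
open scoped ENNReal

/-- Locally monotone Sobolev homeomorphisms between bounded domains of `ℝ³`.  Let `1 ≤ p < ∞`,
let `Ω` be a bounded open subset of Euclidean `ℝ³` and `Λ` a bounded connected open subset.  Let
`f` be a homeomorphism of `Ω` onto `Λ` (continuous on `Ω`, bijective from `Ω` onto `Λ`, with an
inverse `g` continuous on `Λ`) that lies in `W^{1,p}(Ω)` with weak derivative `G`.  Assume that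
`f` is locally monotone up to linear changes of variables: every point `x₀` of `Ω` has a
neighbourhood `B(x₀, r)`, a bilinear form `β` on `ℝ³` and a constant `δ > 0` with
`β (f x - f y, x - y) ≥ δ |f x - f y| |x - y|` for all `x, y` in `Ω ∩ B(x₀, r)`.  Then `f` is
diffeomorphically approximable in `W^{1,p}`: it is the `W^{1,p}(Ω)` limit of `C^∞`
diffeomorphisms of `Ω` onto the same `Λ`.  Nothing is assumed about `∂Ω`, `∂Λ`, the Jacobian or
the regularity of the inverse. -/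
theorem result {p : ℝ≥0∞} (hp : 1 ≤ p) (hp' : p ≠ ⊤)
    {Ω Λ : Set (EuclideanSpace ℝ (Fin 3))} (hΩ : IsOpen Ω) (hΩb : Bornology.IsBounded Ω)
    (hΛ : IsOpen Λ) (hΛc : IsPreconnected Λ) (hΛb : Bornology.IsBounded Λ)
    {f g : EuclideanSpace ℝ (Fin 3) → EuclideanSpace ℝ (Fin 3)}
    {G : EuclideanSpace ℝ (Fin 3) → EuclideanSpace ℝ (Fin 3) →L[ℝ] EuclideanSpace ℝ (Fin 3)}
    (hS : IsSobolevWith p Ω f G) (hf : ContinuousOn f Ω) (hbij : BijOn f Ω Λ)
    (hg : ContinuousOn g Λ) (hgf : ∀ x ∈ Ω, g (f x) = x)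
    (hloc : ∀ x₀ ∈ Ω, ∃ r > 0,
      ∃ β : EuclideanSpace ℝ (Fin 3) →L[ℝ] EuclideanSpace ℝ (Fin 3) →L[ℝ] ℝ, ∃ δ > 0,
        ∀ x ∈ Ω ∩ ball x₀ r, ∀ y ∈ Ω ∩ ball x₀ r,
          δ * ‖f x - f y‖ * ‖x - y‖ ≤ β (f x - f y) (x - y)) :
    IsDiffeoApproximable p Ω Λ f := by
  have hΛn : Λᶜ.Nonempty := by
    by_contra hne
    rw [not_nonempty_iff_eq_empty, compl_empty_iff] at hne
    rw [hne] at hΛb
    exact NormedSpace.unbounded_univ ℝ (EuclideanSpace ℝ (Fin 3)) hΛb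
  exact isDiffeoApproximable_of_locally_monotone hp hp' hΩ hΩb hΛ hΛc hΛn hS hf hbij hg hgf hloc

end Vale.Agent.Results.P073.LocallyMonotoneHomeos
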