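import Vale.Agent.Lib.P073.MonoMain
import Vale.Agent.Lib.P073.FibreTri

namespace Vale.Agent.Results.P073.MonotoneAndTriangular

open Vale.Agent.Lib.P073 MeasureTheory Set Metric
open scoped ENNReal

/-- `LocMono Ω f`: the map `f` is locally monotone on `Ω` up to linear changes of variables:
every point `x₀` of `Ω` has a radius `r > 0`, a bilinear form `β` on `ℝ³` and a constant
`δ > 0` with `β (f x - f y, x - y) ≥ δ |f x - f y| |x - y|` for all `x, y` in `Ω ∩ B(x₀, r)`. -/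
def LocMono (Ω : Set (EuclideanSpace ℝ (Fin 3)))
    (f : EuclideanSpace ℝ (Fin 3) → EuclideanSpace ℝ (Fin 3)) : Prop :=
  ∀ x₀ ∈ Ω, ∃ r > 0,
    ∃ β : EuclideanSpace ℝ (Fin 3) →L[ℝ] EuclideanSpace ℝ (Fin 3) →L[ℝ] ℝ, ∃ δ > 0,
      ∀ x ∈ Ω ∩ ball x₀ r, ∀ y ∈ Ω ∩ ball x₀ r,
        δ * ‖f x - f y‖ * ‖x - y‖ ≤ β (f x - f y) (x - y)

/-- Two classes of Sobolev homeomorphisms of domains of `ℝ³` that are diffeomorphically
approximable in `W^{1,p}`, `1 ≤ p < ∞`, in one statement.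

1. Locally monotone homeomorphisms.  `Ω` is a bounded open subset of Euclidean `ℝ³`, `Λ` a
bounded connected open subset, `f` a homeomorphism of `Ω` onto `Λ` (continuous on `Ω`, bijective
from `Ω` onto `Λ`, with an inverse `g` continuous on `Λ`) that lies in `W^{1,p}(Ω)` with weak
derivative `G`, and `f` is locally monotone on `Ω` in the sense of `LocMono` above.  Then `f`
is the `W^{1,p}(Ω)` limit of `C^∞` diffeomorphisms of `Ω` onto the same `Λ`.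

2. Triangular homeomorphisms of the unit cube.  Here `ℝ³` is (ℝ × ℝ) × ℝ and `Q` is the open
unit cube.  `f` is a continuous bijection of `Q` onto `Q` that lies in `W^{1,p}(Q)` (with weak
derivative `G`); on `Q` its first component depends only on the first variable and its second
component only on the first two variables.  Then `f` is the `W^{1,p}(Q)` limit of `C^∞`
diffeomorphisms of `Q` onto `Q`. -/
theorem result :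
    (∀ {p : ℝ≥0∞}, 1 ≤ p → p ≠ ⊤ →
      ∀ {Ω Λ : Set (EuclideanSpace ℝ (Fin 3))}, IsOpen Ω → Bornology.IsBounded Ω →
      IsOpen Λ → IsPreconnected Λ → Bornology.IsBounded Λ →
      ∀ {f g : EuclideanSpace ℝ (Fin 3) → EuclideanSpace ℝ (Fin 3)}
        {G : EuclideanSpace ℝ (Fin 3) →
          EuclideanSpace ℝ (Fin 3) →L[ℝ] EuclideanSpace ℝ (Fin 3)},
      IsSobolevWith p Ω f G → ContinuousOn f Ω → BijOn f Ω Λ →
      ContinuousOn g Λ → (∀ x ∈ Ω, g (f x) = x) →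
      LocMono Ω f → IsDiffeoApproximable p Ω Λ f) ∧
    (∀ {p : ℝ≥0∞}, 1 ≤ p → p ≠ ⊤ →
      ∀ {f : (ℝ × ℝ) × ℝ → (ℝ × ℝ) × ℝ}
        {G : (ℝ × ℝ) × ℝ → ((ℝ × ℝ) × ℝ) →L[ℝ] ((ℝ × ℝ) × ℝ)},
      ContinuousOn f ((Ioo (0 : ℝ) 1 ×ˢ Ioo (0 : ℝ) 1) ×ˢ Ioo (0 : ℝ) 1) →
      BijOn f ((Ioo (0 : ℝ) 1 ×ˢ Ioo (0 : ℝ) 1) ×ˢ Ioo (0 : ℝ) 1)
        ((Ioo (0 : ℝ) 1 ×ˢ Ioo (0 : ℝ) 1) ×ˢ Ioo (0 : ℝ) 1) →
      IsSobolevWith p ((Ioo (0 : ℝ) 1 ×ˢ Ioo (0 : ℝ) 1) ×ˢ Ioo (0 : ℝ) 1) f G →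
      (∀ x ∈ (Ioo (0 : ℝ) 1 ×ˢ Ioo (0 : ℝ) 1) ×ˢ Ioo (0 : ℝ) 1,
        ∀ x' ∈ (Ioo (0 : ℝ) 1 ×ˢ Ioo (0 : ℝ) 1) ×ˢ Ioo (0 : ℝ) 1,
          x.1.1 = x'.1.1 → (f x).1.1 = (f x').1.1) →
      (∀ x ∈ (Ioo (0 : ℝ) 1 ×ˢ Ioo (0 : ℝ) 1) ×ˢ Ioo (0 : ℝ) 1,
        ∀ x' ∈ (Ioo (0 : ℝ) 1 ×ˢ Ioo (0 : ℝ) 1) ×ˢ Ioo (0 : ℝ) 1,
          x.1 = x'.1 → (f x).1.2 = (f x').1.2) →
      IsDiffeoApproximable p ((Ioo (0 : ℝ) 1 ×ˢ Ioo (0 : ℝ) 1) ×ˢ Ioo (0 : ℝ) 1)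
        ((Ioo (0 : ℝ) 1 ×ˢ Ioo (0 : ℝ) 1) ×ˢ Ioo (0 : ℝ) 1) f) := by
  refine ⟨?_, ?_⟩
  · intro p hp hp' Ω Λ hΩ hΩb hΛ hΛc hΛb f g G hS hf hbij hg hgf hloc
    have hΛn : Λᶜ.Nonempty := by
      by_contra hne
      rw [not_nonempty_iff_eq_empty, compl_empty_iff] at hne
      rw [hne] at hΛb
      exact NormedSpace.unbounded_univ ℝ (EuclideanSpace ℝ (Fin 3)) hΛb
    exact isDiffeoApproximable_of_locally_monotone hp hp' hΩ hΩb hΛ hΛc hΛn hS hf hbij hg hgf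
      hloc
  · intro p hp hp' f G hcont hbij hS h1 h2
    exact isDiffeoApproximable_triangular hp hp' hcont hbij hS h1 h2

end Vale.Agent.Results.P073.MonotoneAndTriangular
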