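import Vale.Agent.Lib.P073.FibreTri

namespace Vale.Agent.Results.P073.TriangularHomeos

open Vale.Agent.Lib.P073 MeasureTheory Set
open scoped ENNReal

/-- Triangular Sobolev homeomorphisms of the unit cube.  Here `ℝ³` is (ℝ × ℝ) × ℝ and `Q` is the
open unit cube ((0,1) × (0,1)) × (0,1).  Let `1 ≤ p < ∞` and let `f` be a continuous bijection
of `Q` onto `Q` that lies in `W^{1,p}(Q)` (with weak derivative `G`) and is triangular: on `Q`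
its first component depends only on the first variable and its second component only on the
first two variables.  Then `f` is diffeomorphically approximable in `W^{1,p}` from `Q` onto `Q`.
Nothing is assumed about the inverse, the Jacobian, or the direction in which the component
functions are monotone. -/
theorem result {p : ℝ≥0∞} (hp : 1 ≤ p) (hp' : p ≠ ⊤)
    {f : (ℝ × ℝ) × ℝ → (ℝ × ℝ) × ℝ}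
    {G : (ℝ × ℝ) × ℝ → ((ℝ × ℝ) × ℝ) →L[ℝ] ((ℝ × ℝ) × ℝ)}
    (hcont : ContinuousOn f ((Ioo (0 : ℝ) 1 ×ˢ Ioo (0 : ℝ) 1) ×ˢ Ioo (0 : ℝ) 1))
    (hbij : BijOn f ((Ioo (0 : ℝ) 1 ×ˢ Ioo (0 : ℝ) 1) ×ˢ Ioo (0 : ℝ) 1)
      ((Ioo (0 : ℝ) 1 ×ˢ Ioo (0 : ℝ) 1) ×ˢ Ioo (0 : ℝ) 1))
    (hS : IsSobolevWith p ((Ioo (0 : ℝ) 1 ×ˢ Ioo (0 : ℝ) 1) ×ˢ Ioo (0 : ℝ) 1) f G)
    (h1 : ∀ x ∈ (Ioo (0 : ℝ) 1 ×ˢ Ioo (0 : ℝ) 1) ×ˢ Ioo (0 : ℝ) 1,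
      ∀ x' ∈ (Ioo (0 : ℝ) 1 ×ˢ Ioo (0 : ℝ) 1) ×ˢ Ioo (0 : ℝ) 1,
        x.1.1 = x'.1.1 → (f x).1.1 = (f x').1.1)
    (h2 : ∀ x ∈ (Ioo (0 : ℝ) 1 ×ˢ Ioo (0 : ℝ) 1) ×ˢ Ioo (0 : ℝ) 1,
      ∀ x' ∈ (Ioo (0 : ℝ) 1 ×ˢ Ioo (0 : ℝ) 1) ×ˢ Ioo (0 : ℝ) 1,
        x.1 = x'.1 → (f x).1.2 = (f x').1.2) :
    IsDiffeoApproximable p ((Ioo (0 : ℝ) 1 ×ˢ Ioo (0 : ℝ) 1) ×ˢ Ioo (0 : ℝ) 1)
      ((Ioo (0 : ℝ) 1 ×ˢ Ioo (0 : ℝ) 1) ×ˢ Ioo (0 : ℝ) 1) f :=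
  isDiffeoApproximable_triangular hp hp' hcont hbij hS h1 h2

end Vale.Agent.Results.P073.TriangularHomeos
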